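import Vale.Agent.P258.R2.H863.Spec

set_option autoImplicit false

namespace Vale.Agent.P258.R2.H863

instance decIs4 (c : Equiv.Perm (Fin 4)) : Decidable (Is4 c) := by unfold Is4; infer_instance

theorem free_dvd : SpecFree := by
  intro H X _ _ _ _ hfree
  classical
  have : Fintype H := Fintype.ofFinite H
  have : Fintype X := Fintype.ofFinite X
  have e := MulAction.selfEquivSigmaOrbitsQuotientStabilizer H X
  have hst : ∀ x : X, MulAction.stabilizer H x = ⊥ := by
    intro x
    rw [Subgroup.eq_bot_iff_forall]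
    intro h hh
    exact hfree x h hh
  rw [Nat.card_congr e, Nat.card_sigma]
  refine Finset.dvd_sum fun ω _ => ?_
  rw [hst]
  have h1 : Nat.card (H ⧸ (⊥ : Subgroup H)) = Nat.card H := by
    have := Subgroup.card_eq_card_quotient_mul_card_subgroup (⊥ : Subgroup H)
    rw [Subgroup.card_bot, mul_one] at this
    exact this.symm
  rw [h1]

set_option maxRecDepth 100000 in
theorem cent : SpecCent := by
  unfold SpecCent
  decide +kernel

theorem count : SpecCount := by
  intro Γ G _ _ _ det _
  classical
  have e : (Γ →* G) ≃ {f : Γ →* G // ∃ x, det (f x) ≠ 1} ⊕ {f : Γ →* G // ¬ ∃ x, det (f x) ≠ 1} :=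
    (Equiv.sumCompl _).symm
  have e2 : {f : Γ →* G // ¬ ∃ x, det (f x) ≠ 1} ≃ (Γ →* det.ker) :=
    { toFun := fun f => f.1.codRestrict det.ker fun x => by
        by_contra h
        exact f.2 ⟨x, h⟩
      invFun := fun f => ⟨det.ker.subtype.comp f, by
        rintro ⟨x, hx⟩
        exact hx (f x).2⟩
      left_inv := fun f => rfl
      right_inv := fun f => rfl }
  rw [Nat.card_congr e, Nat.card_sum, Nat.card_congr e2]

end Vale.Agent.P258.R2.H863
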